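import Vale.Agent.Lib.P037.Rect.Final

open Vale.Agent.Lib.P037 Vale.Agent.Lib.P037.BV in
/-- (1) The polynomial removal property passes from a pattern to all its ordered blow-ups.
(2) It holds, for every `k`, for every `k × k` pattern that is constant on the four blocks cut out
by a row cut and a column cut.  (3) It holds for every `2 × 2` pattern.
(4) For every `k` and EVERY `k × k` pattern `H` the polynomial removal bound holds in all hosts with
at most `V n` vertical (or horizontal) changes, polynomially in `ε / (V + 1)`.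
(5) The same in all hosts with at most `T` distinct rows (or columns), polynomially in `ε / T`. -/
theorem Vale.Agent.Results.P037.AllPatterns.result :
    (∀ (k0 k : ℕ) (H0 : Fin k0 → Fin k0 → Bool) (φ ψ : Fin k → Fin k0),
        Monotone φ → Function.Surjective φ → Monotone ψ → Function.Surjective ψ →
        PolyRemoval H0 → PolyRemoval (fun i j => H0 (φ i) (ψ j))) ∧
    (∀ (k : ℕ) (H : Fin k → Fin k → Bool) (s t : ℕ), 0 < s → s < k → 0 < t → t < k →
        (∀ i i' j j' : Fin k, (i.val < s ↔ i'.val < s) → (j.val < t ↔ j'.val < t) →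
          H i j = H i' j') →
        PolyRemoval H) ∧
    (∀ H : Fin 2 → Fin 2 → Bool, PolyRemoval H) ∧
    (∀ (k : ℕ), 1 ≤ k → ∀ H : Fin k → Fin k → Bool,
      ∃ (c : ℝ) (C : ℕ), 0 < c ∧ ∀ n : ℕ, 1 ≤ n → ∀ (A : Fin n → Fin n → Bool) (V : ℝ), 0 ≤ V →
        ((vchanges A : ℝ) ≤ V * n ∨ (vchanges (fun i j => A j i) : ℝ) ≤ V * n) →
        ∀ ε : ℝ, 0 < ε → ε < 1 → IsFar H A ε →
        c * (ε / (V + 1)) ^ C * (n : ℝ) ^ (2 * k) ≤ (numCopies H A : ℝ)) ∧
    (∀ (k : ℕ), 1 ≤ k → ∀ H : Fin k → Fin k → Bool,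
      ∃ (c : ℝ) (C : ℕ), 0 < c ∧ ∀ n T : ℕ, 1 ≤ n → 1 ≤ T → ∀ (A : Fin n → Fin n → Bool)
        (t : Fin n → Fin T),
        ((∀ i i', t i = t i' → ∀ j, A i j = A i' j) ∨ (∀ j j', t j = t j' → ∀ i, A i j = A i j')) →
        ∀ ε : ℝ, 0 < ε → ε < 1 → IsFar H A ε →
        c * (ε / T) ^ C * (n : ℝ) ^ (2 * k) ≤ (numCopies H A : ℝ)) :=
  ⟨fun _ _ H0 φ ψ hφ hφs hψ hψs h => Blow.polyRemoval_blow H0 φ ψ hφ hφs hψ hψs h,
   fun _ H s t hs0 hsk ht0 htk hH => Blow.polyRemoval_block H s t hs0 hsk ht0 htk hH,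
   polyRemoval_two,
   fun _ hk H => Rect.bv_all_sym hk H,
   fun _ hk H => Rect.few_lines_all hk H⟩
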