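import Vale.Agent.Lib.P037.AllTwo

open Vale.Agent.Lib.P037 in
/-- The polynomial ordered matrix-removal conjecture holds for every 2 x 2 binary pattern. -/
theorem Vale.Agent.Results.P037.AllTwo.result :
    ∀ H : Fin 2 → Fin 2 → Bool, PolyRemoval H :=
  polyRemoval_two
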