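import Vale.Agent.Lib.P037.Blow.Main

open Vale.Agent.Lib.P037 in
/-- (1) The polynomial removal property passes from a pattern to all its ordered blow-ups.
(2) It holds, for every `k`, for every `k × k` pattern that is constant on the four blocks cut out
by a row cut and a column cut.  (3) It holds for every `2 × 2` pattern. -/
theorem Vale.Agent.Results.P037.BlockPatterns.result :
    (∀ (k0 k : ℕ) (H0 : Fin k0 → Fin k0 → Bool) (φ ψ : Fin k → Fin k0),
        Monotone φ → Function.Surjective φ → Monotone ψ → Function.Surjective ψ →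
        PolyRemoval H0 → PolyRemoval (fun i j => H0 (φ i) (ψ j))) ∧
    (∀ (k : ℕ) (H : Fin k → Fin k → Bool) (s t : ℕ), 0 < s → s < k → 0 < t → t < k →
        (∀ i i' j j' : Fin k, (i.val < s ↔ i'.val < s) → (j.val < t ↔ j'.val < t) →
          H i j = H i' j') →
        PolyRemoval H) ∧
    (∀ H : Fin 2 → Fin 2 → Bool, PolyRemoval H) :=
  ⟨fun _ _ H0 φ ψ hφ hφs hψ hψs h => Blow.polyRemoval_blow H0 φ ψ hφ hφs hψ hψs h,
   fun _ H s t hs0 hsk ht0 htk hH => Blow.polyRemoval_block H s t hs0 hsk ht0 htk hH,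
   polyRemoval_two⟩
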