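import Vale.Agent.Lib.P037.Final

open Vale.Agent.Lib.P037 in
/-- Polynomial removal holds for the two 2 x 2 permutation patterns. -/
theorem Vale.Agent.Results.P037.Diag2.result :
    PolyRemoval ![![true, false], ![false, true]] ∧
      PolyRemoval ![![false, true], ![true, false]] :=
  ⟨polyRemoval_of_diag _ rfl rfl (by decide), polyRemoval_of_diag _ rfl rfl (by decide)⟩
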