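import Vale.Agent.Lib.P037.NewTwo

open Vale.Agent.Lib.P037 in
/-- Polynomial removal holds for every 2 x 2 pattern whose two rows differ and whose two columns
differ (the ten 2 x 2 patterns not closed under row or column permutations). -/
theorem Vale.Agent.Results.P037.NewTwo.result :
    ∀ H : Fin 2 → Fin 2 → Bool, H 0 ≠ H 1 → (fun i => H i 0) ≠ (fun i => H i 1) →
      PolyRemoval H :=
  polyRemoval_two_new
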